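import Mathlib
import Vale.Agent.P074.Defs
import Vale.Agent.P074.Main
import Vale.Agent.P074.Upper

open Vale.Agent.P074

theorem Vale.Agent.Results.P074.Exponent.result :
    ∀ d : ℕ, 2 ≤ d → IsGreatest {α : ℝ | Admissible d α} (1 / 3) ∧ ¬ Admissible d (1 / 2) := by
  intro d hd
  refine ⟨⟨admissible_third (by omega), fun α hα => ?_⟩, not_admissible hd (by norm_num)⟩
  by_contra h
  exact not_admissible hd (not_le.1 h) hα
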